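import Mathlib

/-! # P331: `(k/(k-1))^j ≤ 3` for `j ≤ k - 1` -/

namespace Vale.Agent.Lib.P331

theorem pow_le_three_mul (k j : ℕ) (hk : 1 ≤ k) (hj : j ≤ k - 1) : k ^ j ≤ 3 * (k - 1) ^ j := by
  obtain ⟨m, rfl⟩ : ∃ m, k = m + 1 := ⟨k - 1, by omega⟩
  simp only [Nat.add_sub_cancel] at hj ⊢
  rcases Nat.eq_zero_or_pos m with rfl | hm
  · have : j = 0 := by omega
    subst this
    norm_num
  · have hm' : (0 : ℝ) < m := by exact_mod_cast hm
    have h1 : (1 + 1 / (m : ℝ)) ≤ Real.exp (1 / (m : ℝ)) := by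
      have := Real.add_one_le_exp (1 / (m : ℝ))
      linarith
    have h0 : (0 : ℝ) ≤ 1 + 1 / (m : ℝ) := by positivity
    have h2 : (1 + 1 / (m : ℝ)) ^ j ≤ Real.exp (1 / (m : ℝ)) ^ j := pow_le_pow_left₀ h0 h1 j
    have h3 : Real.exp (1 / (m : ℝ)) ^ j = Real.exp ((j : ℝ) * (1 / (m : ℝ))) := by
      rw [← Real.exp_nat_mul]
    have h4 : (j : ℝ) * (1 / (m : ℝ)) ≤ 1 := by
      rw [mul_one_div, div_le_one hm']
      exact_mod_cast hj
    have h5 : Real.exp ((j : ℝ) * (1 / (m : ℝ))) ≤ 3 :=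
      (Real.exp_le_exp.2 h4).trans Real.exp_one_lt_three.le
    have h6 : (1 + 1 / (m : ℝ)) ^ j ≤ 3 := by
      rw [h3] at h2
      exact h2.trans h5
    have h7 : ((m : ℝ) + 1) ^ j = (1 + 1 / (m : ℝ)) ^ j * (m : ℝ) ^ j := by
      rw [← mul_pow]
      congr 1
      field_simp
    have h8 : ((m : ℝ) + 1) ^ j ≤ 3 * (m : ℝ) ^ j := by
      rw [h7]
      exact mul_le_mul_of_nonneg_right h6 (by positivity)
    exact_mod_cast h8

end Vale.Agent.Lib.P331
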