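import Vale.Agent.Lib.P331.Un.Arith

/-! # P331: a fixed element of a set of at most `k` elements is alone in its bucket for at least a
third of all assignments of the elements to `k` buckets -/

namespace Vale.Agent.Lib.P331

theorem count_alone {E : Type} [Fintype E] [DecidableEq E] (k : ℕ) (I : Finset E) (hI : I.card ≤ k)
    (e : E) (he : e ∈ I) :
    Fintype.card (E → Fin k) ≤ 3 * (Finset.univ.filter
      (fun b : E → Fin k => ∀ f ∈ I, f ≠ e → b f ≠ b e)).card := by
  classical
  have hI1 : 1 ≤ I.card := Finset.card_pos.2 ⟨e, he⟩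
  have hk : 1 ≤ k := hI1.trans hI
  have hIn : I.card ≤ Fintype.card E := Finset.card_le_univ I
  let S : Fin k → Finset (E → Fin k) := fun c =>
    Fintype.piFinset (fun f => if f = e then {c} else
      if f ∈ I then Finset.univ.erase c else Finset.univ)
  have hcard : ∀ c, (S c).card = (k - 1) ^ (I.card - 1) * k ^ (Fintype.card E - I.card) := by
    intro c
    rw [Fintype.card_piFinset, ← Finset.prod_mul_prod_compl I]
    congr 1
    · rw [← Finset.mul_prod_erase I _ he]
      simp only [if_true, Finset.card_singleton, one_mul]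
      rw [Finset.prod_congr rfl (g := fun _ => k - 1)]
      · rw [Finset.prod_const, Finset.card_erase_of_mem he]
      · intro f hf
        have h1 : f ≠ e := Finset.ne_of_mem_erase hf
        have h2 : f ∈ I := Finset.mem_of_mem_erase hf
        simp [h1, h2]
    · rw [Finset.prod_congr rfl (g := fun _ => k)]
      · rw [Finset.prod_const, Finset.card_compl]
      · intro f hf
        have h2 : f ∉ I := Finset.mem_compl.1 hf
        have h1 : f ≠ e := fun h => h2 (h ▸ he)
        simp [h1, h2]
  have hdisj : ∀ c ∈ (Finset.univ : Finset (Fin k)), ∀ c' ∈ (Finset.univ : Finset (Fin k)),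
      c ≠ c' → Disjoint (S c) (S c') := by
    intro c _ c' _ hcc
    rw [Finset.disjoint_left]
    intro b hb hb'
    have h1 := Fintype.mem_piFinset.1 hb e
    have h2 := Fintype.mem_piFinset.1 hb' e
    simp at h1 h2
    exact hcc (h1.symm.trans h2)
  have hsub : Finset.univ.biUnion S ⊆ Finset.univ.filter
      (fun b : E → Fin k => ∀ f ∈ I, f ≠ e → b f ≠ b e) := by
    intro b hb
    obtain ⟨c, -, hc⟩ := Finset.mem_biUnion.1 hb
    rw [Finset.mem_filter]
    refine ⟨Finset.mem_univ _, fun f hf hfe => ?_⟩
    have h1 := Fintype.mem_piFinset.1 hc e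
    have h2 := Fintype.mem_piFinset.1 hc f
    simp at h1
    simp [hfe, hf] at h2
    rw [h1]
    exact h2
  have hle := Finset.card_le_card hsub
  rw [Finset.card_biUnion hdisj] at hle
  simp only [hcard, Finset.sum_const, Finset.card_univ, Fintype.card_fin, smul_eq_mul] at hle
  have hpow := pow_le_three_mul k (I.card - 1) hk (by omega)
  have hkn : Fintype.card (E → Fin k) =
      k * k ^ (I.card - 1) * k ^ (Fintype.card E - I.card) := by
    rw [Fintype.card_fun, Fintype.card_fin, ← pow_succ', ← pow_add]
    congr 1
    omega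
  rw [hkn]
  calc k * k ^ (I.card - 1) * k ^ (Fintype.card E - I.card)
      ≤ k * (3 * (k - 1) ^ (I.card - 1)) * k ^ (Fintype.card E - I.card) := by gcongr
    _ = 3 * (k * ((k - 1) ^ (I.card - 1) * k ^ (Fintype.card E - I.card))) := by ring
    _ ≤ _ := Nat.mul_le_mul_left 3 hle

end Vale.Agent.Lib.P331
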