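import Vale.Agent.Lib.P331.Un.Opt
import Vale.Agent.Lib.P331.Sp.Family
import Vale.Agent.Lib.P331.Gr.PartComp

/-! # P331: uniform matroids: ratio `1 / 108` -/

namespace Vale.Agent.Lib.P331

open scoped NNReal ENNReal

variable {E : Type} [Fintype E] [DecidableEq E]

theorem uniform_competitive (M : Matroid E) (k : ℕ) (hk : 1 ≤ k)
    (hM : ∀ I : Set E, M.Indep I ↔ I.encard ≤ k) :
    ∃ R : Rule E, Competitive M R (1 / 36 / (3 : ℕ)) := by
  haveI : Nonempty (E → Fin k) := ⟨fun _ => ⟨0, hk⟩⟩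
  exact competitive_of_family M (fun b : E → Fin k => keyM (fun e => (b e : ℕ)) Set.univ)
    (fun b I hI => bucket_indep M k hM b I hI) 3 (opt_le_buckets M k hM) (1 / 36)
    (fun _ => ⟨_, keyM_competitive _ _⟩)

end Vale.Agent.Lib.P331
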