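import Vale.Agent.Lib.P331.Un.Count
import Vale.Agent.Lib.P331.Gr.Part

/-! # P331: a uniform matroid is covered on average by the partition matroids of the bucketings -/

namespace Vale.Agent.Lib.P331

open scoped NNReal ENNReal

variable {E : Type} [Fintype E] [DecidableEq E]

theorem bucket_indep (M : Matroid E) (k : ℕ) (hM : ∀ I : Set E, M.Indep I ↔ I.encard ≤ k)
    (b : E → Fin k) (I : Set E) (h : (keyM (fun e => (b e : ℕ)) Set.univ).Indep I) : M.Indep I := by
  rw [hM]
  have hinj := ((keyM_indep_iff _ _ _).1 h).1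
  have hb : Set.InjOn b I := fun x hx y hy hxy => hinj hx hy (congrArg Fin.val hxy)
  calc I.encard = (b '' I).encard := (hb.encard_image).symm
    _ ≤ (Set.univ : Set (Fin k)).encard := Set.encard_le_encard (Set.subset_univ _)
    _ = k := by simp [Set.encard_univ]

theorem opt_le_buckets (M : Matroid E) (k : ℕ) (hM : ∀ I : Set E, M.Indep I ↔ I.encard ≤ k)
    (v : E → ℝ≥0) :
    (Fintype.card (E → Fin k) : ℝ≥0) * opt M v ≤
      (3 : ℕ) * ∑ b : E → Fin k, opt (keyM (fun e => (b e : ℕ)) Set.univ) v := by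
  classical
  obtain ⟨I, hI, hopt⟩ : ∃ I : Finset E, M.Indep (I : Set E) ∧ opt M v = ∑ e ∈ I, v e := by
    have hne : (Finset.univ.filter (fun I : Finset E => M.Indep (I : Set E))).Nonempty :=
      ⟨∅, Finset.mem_filter.mpr ⟨Finset.mem_univ _, by simp⟩⟩
    obtain ⟨I, hI, h⟩ := Finset.exists_mem_eq_sup _ hne (fun I : Finset E => ∑ e ∈ I, v e)
    refine ⟨I, (Finset.mem_filter.mp hI).2, ?_⟩
    unfold opt
    convert h
  have hIk : I.card ≤ k := by
    have h1 := (hM I).1 hI
    rw [Set.encard_coe_eq_coe_finsetCard] at h1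
    exact_mod_cast h1
  have hA : ∀ b : E → Fin k, ∑ e ∈ I.filter (fun e => ∀ f ∈ I, f ≠ e → b f ≠ b e), v e ≤
      opt (keyM (fun e => (b e : ℕ)) Set.univ) v := by
    intro b
    apply sum_le_opt
    rw [keyM_indep_iff]
    refine ⟨?_, Set.subset_univ _⟩
    intro x hx y hy hxy
    by_contra hne
    have hx' := Finset.mem_filter.mp (Finset.mem_coe.mp hx)
    have hy' := Finset.mem_filter.mp (Finset.mem_coe.mp hy)
    exact hx'.2 y hy'.1 (fun e => hne e.symm) (Fin.ext hxy.symm)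
  have hswap : ∑ b : E → Fin k, ∑ e ∈ I.filter (fun e => ∀ f ∈ I, f ≠ e → b f ≠ b e), v e =
      ∑ e ∈ I, ((Finset.univ.filter
        (fun b : E → Fin k => ∀ f ∈ I, f ≠ e → b f ≠ b e)).card : ℝ≥0) * v e := by
    simp_rw [Finset.sum_filter]
    rw [Finset.sum_comm]
    apply Finset.sum_congr rfl
    intro e _
    rw [← Finset.sum_filter, Finset.sum_const, nsmul_eq_mul]
  rw [hopt, Finset.mul_sum]
  calc ∑ e ∈ I, (Fintype.card (E → Fin k) : ℝ≥0) * v e
      ≤ ∑ e ∈ I, ((3 : ℕ) : ℝ≥0) * (((Finset.univ.filter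
        (fun b : E → Fin k => ∀ f ∈ I, f ≠ e → b f ≠ b e)).card : ℝ≥0) * v e) := by
        apply Finset.sum_le_sum
        intro e he
        rw [← mul_assoc]
        apply mul_le_mul_left
        exact_mod_cast count_alone k I hIk e he
    _ = ((3 : ℕ) : ℝ≥0) * ∑ b : E → Fin k,
          ∑ e ∈ I.filter (fun e => ∀ f ∈ I, f ≠ e → b f ≠ b e), v e := by
        rw [hswap, Finset.mul_sum]
    _ ≤ ((3 : ℕ) : ℝ≥0) * ∑ b : E → Fin k, opt (keyM (fun e => (b e : ℕ)) Set.univ) v := by
        apply mul_le_mul_right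
        exact Finset.sum_le_sum (fun b _ => hA b)

end Vale.Agent.Lib.P331
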